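import Mathlib

/-!
Global solutions of scalar differential equations with a bounded Lipschitz right side, their
smoothness, and a periodic bound.
-/

open scoped ContDiff NNReal Topology
open Set Metric

namespace Vale.Agent.Lib.P205.KleinInv

/-- Global existence for a bounded, uniformly Lipschitz right side. -/
theorem exists_global_solution {V : ℝ → ℝ → ℝ} {K M : ℝ≥0}
    (hc : Continuous fun p : ℝ × ℝ => V p.1 p.2) (hL : ∀ x, LipschitzWith K (V x))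
    (hM : ∀ x t, ‖V x t‖ ≤ M) (t₀ : ℝ) :
    ∃ u : ℝ → ℝ, u 0 = t₀ ∧ ∀ x, HasDerivAt u (V x (u x)) x := by
  -- solutions on growing intervals
  have hloc : ∀ N : ℕ, ∃ α : ℝ → ℝ, α 0 = t₀ ∧ ∀ x ∈ Ioo (-((N:ℝ) + 1)) ((N:ℝ) + 1),
      HasDerivAt α (V x (α x)) x := by
    intro N
    have hT : (0:ℝ) < (N:ℝ) + 1 := by positivity
    have h0 : (0:ℝ) ∈ Icc (-((N:ℝ) + 1)) ((N:ℝ) + 1) := ⟨by linarith, hT.le⟩
    let T : ℝ≥0 := ⟨(N:ℝ) + 1, hT.le⟩
    have hPL : IsPicardLindelof V (tmin := -((N:ℝ) + 1)) (tmax := (N:ℝ) + 1) ⟨0, h0⟩ t₀ (M * T) 0 M K :=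
      { lipschitzOnWith := fun t _ => (hL t).lipschitzOnWith
        continuousOn := fun x _ => by
          have : Continuous fun t => V t x := hc.comp (continuous_id.prodMk continuous_const)
          exact this.continuousOn
        norm_le := fun t _ x _ => hM t x
        mul_max_le := by
          simp only [NNReal.coe_zero, sub_zero, NNReal.coe_mul]
          have : max ((N:ℝ) + 1) (0 - -((N:ℝ) + 1)) = (N:ℝ) + 1 := by simp
          rw [this]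
          rfl }
    obtain ⟨α, hα0, hα⟩ := hPL.exists_eq_forall_mem_Icc_hasDerivWithinAt₀
    refine ⟨α, hα0, fun x hx => ?_⟩
    exact (hα x (Ioo_subset_Icc_self hx)).hasDerivAt (Icc_mem_nhds hx.1 hx.2)
  choose α hα0 hα using hloc
  -- they agree
  have huniq : ∀ (m m' : ℕ) (y : ℝ), |y| < (m:ℝ) + 1 → |y| < (m':ℝ) + 1 → α m y = α m' y := by
    intro m m' y h1 h2
    set T : ℝ := min ((m:ℝ) + 1) ((m':ℝ) + 1) with hT
    have hTpos : 0 < T := lt_min (by positivity) (by positivity)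
    have hy : y ∈ Ioo (-T) T := by
      have : |y| < T := lt_min h1 h2
      exact abs_lt.mp this
    have hsub1 : Ioo (-T) T ⊆ Ioo (-((m:ℝ) + 1)) ((m:ℝ) + 1) := by
      intro z hz
      have : T ≤ (m:ℝ) + 1 := min_le_left _ _
      exact ⟨by linarith [hz.1], by linarith [hz.2]⟩
    have hsub2 : Ioo (-T) T ⊆ Ioo (-((m':ℝ) + 1)) ((m':ℝ) + 1) := by
      intro z hz
      have : T ≤ (m':ℝ) + 1 := min_le_right _ _
      exact ⟨by linarith [hz.1], by linarith [hz.2]⟩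
    have := ODE_solution_unique_of_mem_Ioo (v := V) (s := fun _ => univ) (K := K) (a := -T) (b := T)
      (t₀ := 0) (f := α m) (g := α m')
      (fun t _ => (hL t).lipschitzOnWith.mono (subset_univ _))
      ⟨by linarith, hTpos⟩
      (fun t ht => ⟨hα m t (hsub1 ht), mem_univ _⟩)
      (fun t ht => ⟨hα m' t (hsub2 ht), mem_univ _⟩)
      (by rw [hα0, hα0])
    exact this hy
  refine ⟨fun x => α ⌈|x|⌉₊ x, ?_, ?_⟩
  · exact hα0 _
  · intro x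
    set N : ℕ := ⌈|x|⌉₊ with hN
    have hxN : |x| < (N:ℝ) + 1 := lt_of_le_of_lt (Nat.le_ceil _) (by linarith)
    have hmem : x ∈ Ioo (-((N:ℝ) + 1)) ((N:ℝ) + 1) := abs_lt.mp hxN
    have hev : (fun x => α ⌈|x|⌉₊ x) =ᶠ[𝓝 x] α N := by
      filter_upwards [Ioo_mem_nhds hmem.1 hmem.2] with y hy
      have hy' : |y| < (N:ℝ) + 1 := abs_lt.mpr hy
      exact huniq _ _ _ (lt_of_le_of_lt (Nat.le_ceil _) (by linarith)) hy'
    have hval : α ⌈|x|⌉₊ x = α N x := rfl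
    have := (hα N x hmem).congr_of_eventuallyEq hev
    simpa [hval] using this

/-- A solution of a smooth equation is smooth. -/
theorem contDiff_of_ode {Φ : ℝ × ℝ → ℝ} (hΦ : ContDiff ℝ ∞ Φ) {u : ℝ → ℝ}
    (hu : ∀ x, HasDerivAt u (Φ (x, u x)) x) : ContDiff ℝ ∞ u := by
  have hdiff : Differentiable ℝ u := fun x => (hu x).differentiableAt
  have hder : deriv u = fun x => Φ (x, u x) := funext fun x => (hu x).deriv
  rw [contDiff_infty]
  intro n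
  induction n with
  | zero =>
    simpa using hdiff.continuous
  | succ n ih =>
    have : ((n + 1 : ℕ) : WithTop ℕ∞) = (n : WithTop ℕ∞) + 1 := by norm_cast
    rw [this, contDiff_succ_iff_deriv]
    refine ⟨hdiff, by simp, ?_⟩
    rw [hder]
    have h1 : ContDiff ℝ n Φ := hΦ.of_le (by exact_mod_cast le_top)
    exact h1.comp (contDiff_id.prodMk ih)

/-- A `C¹` function with three periods is bounded and Lipschitz. -/
theorem exists_bounds_of_periodic {Φ : ℝ × ℝ × ℝ → ℝ} (hΦ : ContDiff ℝ 1 Φ) {p₁ p₂ p₃ : ℝ}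
    (h₁0 : 0 < p₁) (h₂0 : 0 < p₂) (h₃0 : 0 < p₃)
    (h₁ : ∀ x t θ, Φ (x + p₁, t, θ) = Φ (x, t, θ))
    (h₂ : ∀ x t θ, Φ (x, t + p₂, θ) = Φ (x, t, θ))
    (h₃ : ∀ x t θ, Φ (x, t, θ + p₃) = Φ (x, t, θ)) :
    ∃ K M : ℝ≥0, LipschitzWith K Φ ∧ ∀ z, ‖Φ z‖ ≤ M := by
  -- integer translations
  have hz : ∀ (k₁ k₂ k₃ : ℤ) (z : ℝ × ℝ × ℝ),
      Φ (z.1 + k₁ * p₁, z.2.1 + k₂ * p₂, z.2.2 + k₃ * p₃) = Φ z := by
    rintro k₁ k₂ k₃ ⟨x, t, θ⟩
    have p1 : ∀ t θ, Function.Periodic (fun x => Φ (x, t, θ)) p₁ := fun t θ x => h₁ x t θ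
    have p2 : ∀ x θ, Function.Periodic (fun t => Φ (x, t, θ)) p₂ := fun x θ t => h₂ x t θ
    have p3 : ∀ x t, Function.Periodic (fun θ => Φ (x, t, θ)) p₃ := fun x t θ => h₃ x t θ
    have e1 : Φ (x + k₁ * p₁, t + k₂ * p₂, θ + k₃ * p₃) = Φ (x, t + k₂ * p₂, θ + k₃ * p₃) :=
      (p1 (t + k₂ * p₂) (θ + k₃ * p₃)).int_mul k₁ x
    have e2 : Φ (x, t + k₂ * p₂, θ + k₃ * p₃) = Φ (x, t, θ + k₃ * p₃) :=
      (p2 x (θ + k₃ * p₃)).int_mul k₂ t
    have e3 : Φ (x, t, θ + k₃ * p₃) = Φ (x, t, θ) := (p3 x t).int_mul k₃ θ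
    show Φ (x + k₁ * p₁, t + k₂ * p₂, θ + k₃ * p₃) = Φ (x, t, θ)
    rw [e1, e2, e3]
  -- every point has a translate in the box
  have hbox : ∀ z : ℝ × ℝ × ℝ, ∃ k₁ k₂ k₃ : ℤ,
      (z.1 + k₁ * p₁, z.2.1 + k₂ * p₂, z.2.2 + k₃ * p₃) ∈
        Icc (0:ℝ) p₁ ×ˢ (Icc (0:ℝ) p₂ ×ˢ Icc (0:ℝ) p₃) := by
    intro z
    have key : ∀ (y p : ℝ), 0 < p → ∃ k : ℤ, y + k * p ∈ Icc (0:ℝ) p := by
      intro y p hp
      refine ⟨-⌊y / p⌋, ?_⟩
      have h1 : (⌊y / p⌋ : ℝ) ≤ y / p := Int.floor_le _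
      have h2 : y / p < ⌊y / p⌋ + 1 := Int.lt_floor_add_one _
      rw [le_div_iff₀ hp] at h1
      rw [div_lt_iff₀ hp] at h2
      push_cast
      constructor <;> nlinarith
    obtain ⟨k₁, h1⟩ := key z.1 p₁ h₁0
    obtain ⟨k₂, h2⟩ := key z.2.1 p₂ h₂0
    obtain ⟨k₃, h3⟩ := key z.2.2 p₃ h₃0
    exact ⟨k₁, k₂, k₃, h1, h2, h3⟩
  have hcomp : IsCompact (Icc (0:ℝ) p₁ ×ˢ (Icc (0:ℝ) p₂ ×ˢ Icc (0:ℝ) p₃)) :=
    isCompact_Icc.prod (isCompact_Icc.prod isCompact_Icc)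
  -- the bound for the value
  obtain ⟨M, hM⟩ := hcomp.exists_bound_of_continuousOn hΦ.continuous.continuousOn
  -- the bound for the derivative
  have hfd : Continuous (fderiv ℝ Φ) := hΦ.continuous_fderiv (by simp)
  obtain ⟨C, hC⟩ := hcomp.exists_bound_of_continuousOn hfd.continuousOn
  have hMb : ∀ z, ‖Φ z‖ ≤ max M 0 := by
    intro z
    obtain ⟨k₁, k₂, k₃, hm⟩ := hbox z
    have := hM _ hm
    rw [hz] at this
    exact le_max_of_le_left this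
  have hCb : ∀ z, ‖fderiv ℝ Φ z‖ ≤ max C 0 := by
    intro z
    obtain ⟨k₁, k₂, k₃, hm⟩ := hbox z
    have hb := hC _ hm
    set w : ℝ × ℝ × ℝ := ((k₁:ℝ) * p₁, (k₂:ℝ) * p₂, (k₃:ℝ) * p₃) with hw
    have e : (z.1 + (k₁:ℝ) * p₁, z.2.1 + (k₂:ℝ) * p₂, z.2.2 + (k₃:ℝ) * p₃) = z + w := rfl
    rw [e] at hb
    have hfun : (fun y => Φ (y + w)) = Φ := by
      funext y
      exact hz k₁ k₂ k₃ y
    have h2 : fderiv ℝ Φ z = fderiv ℝ Φ (z + w) := by
      have := fderiv_comp_add_right (𝕜 := ℝ) (f := Φ) (x := z) w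
      rw [hfun] at this
      exact this
    rw [h2]
    exact le_max_of_le_left hb
  refine ⟨⟨max C 0, le_max_right _ _⟩, ⟨max M 0, le_max_right _ _⟩, ?_, hMb⟩
  apply lipschitzWith_of_nnnorm_fderiv_le (hΦ.differentiable (by simp))
  intro z
  exact NNReal.coe_le_coe.mp (hCb z)

end Vale.Agent.Lib.P205.KleinInv
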