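import Mathlib
import Vale.Agent.Lib.P205.Klein
import Vale.Agent.Lib.P205.KleinInv.Ode

/-!
The right side of the equation of the parameter, and its algebra.
-/

open scoped ContDiff NNReal
open Set MeasureTheory

namespace Vale.Agent.Lib.P205.KleinInv

open Vale.Agent.Lib.P205

/-- The factor of `(f')²`. -/
noncomputable def kZ (K₁ K₂ t : ℝ) : ℝ := Real.cos t ^ 2 / K₁ ^ 2 + Real.sin t ^ 2 / K₂ ^ 2

/-- The constant term. -/
noncomputable def kA (K₁ K₂ d t : ℝ) : ℝ := 1 - d ^ 2 * kZ K₁ K₂ t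

/-- The linear coefficient. -/
noncomputable def kB (K₁ K₂ e d t : ℝ) : ℝ :=
  e * d * (Real.sin t * Real.cos t) * (1 / K₂ ^ 2 - 1 / K₁ ^ 2)

/-- The quadratic coefficient. -/
noncomputable def kC (K₁ K₂ l e t : ℝ) : ℝ := e ^ 2 * kleinQ K₁ K₂ l t

/-- The speed of the parameter: the positive root of `C τ² + 2 B τ - A`. -/
noncomputable def kTau (K₁ K₂ l e d t : ℝ) : ℝ :=
  (-kB K₁ K₂ e d t + √(kB K₁ K₂ e d t ^ 2 + kA K₁ K₂ d t * kC K₁ K₂ l e t)) / kC K₁ K₂ l e t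

section Alg

variable {K₁ K₂ M' : ℝ}

lemma kZ_nonneg (hK₁ : 0 < K₁) (hK₂ : 0 < K₂) (t : ℝ) : 0 ≤ kZ K₁ K₂ t := by
  unfold kZ; positivity

lemma kZ_le (hK₁ : 0 < K₁) (h12 : K₁ ≤ K₂) (t : ℝ) : kZ K₁ K₂ t ≤ 1 / K₁ ^ 2 := by
  unfold kZ
  have hq : 1 / K₂ ^ 2 ≤ 1 / K₁ ^ 2 := by
    apply one_div_le_one_div_of_le (by positivity)
    exact pow_le_pow_left₀ hK₁.le h12 2
  have hs : 0 ≤ Real.sin t ^ 2 := by positivity
  have e1 : Real.cos t ^ 2 / K₁ ^ 2 = Real.cos t ^ 2 * (1 / K₁ ^ 2) := by ring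
  have e2 : Real.sin t ^ 2 / K₂ ^ 2 = Real.sin t ^ 2 * (1 / K₂ ^ 2) := by ring
  have e3 : (1 : ℝ) / K₁ ^ 2 = (Real.sin t ^ 2 + Real.cos t ^ 2) * (1 / K₁ ^ 2) := by
    rw [Real.sin_sq_add_cos_sq, one_mul]
  rw [e1, e2, e3]
  nlinarith [mul_le_mul_of_nonneg_left hq hs]

/-- The constant term stays above `3/4`. -/
lemma kA_ge (hK₁ : 0 < K₁) (h12 : K₁ ≤ K₂) {d : ℝ} (hd : 2 * |d| ≤ K₁) (t : ℝ) :
    3 / 4 ≤ kA K₁ K₂ d t := by
  unfold kA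
  have hZ := kZ_le hK₁ h12 t
  have h1 : d ^ 2 * kZ K₁ K₂ t ≤ d ^ 2 * (1 / K₁ ^ 2) :=
    mul_le_mul_of_nonneg_left hZ (by positivity)
  have h2 : d ^ 2 * (1 / K₁ ^ 2) ≤ 1 / 4 := by
    have h3 : 4 * d ^ 2 ≤ K₁ ^ 2 := by
      have := abs_nonneg d
      have h4 : (2 * |d|) ^ 2 ≤ K₁ ^ 2 := pow_le_pow_left₀ (by positivity) hd 2
      rw [mul_pow, sq_abs] at h4
      linarith
    have : d ^ 2 * (1 / K₁ ^ 2) = d ^ 2 / K₁ ^ 2 := by ring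
    rw [this, div_le_iff₀ (by positivity)]
    linarith
  linarith

lemma kA_le (hK₁ : 0 < K₁) (hK₂ : 0 < K₂) (d t : ℝ) : kA K₁ K₂ d t ≤ 1 := by
  unfold kA
  have := mul_nonneg (sq_nonneg d) (kZ_nonneg hK₁ hK₂ t)
  linarith

lemma kC_pos (hK₁ : 0 < K₁) (h12 : K₁ ≤ K₂) {e : ℝ} (he : 0 < e) (l t : ℝ) :
    0 < kC K₁ K₂ l e t := by
  unfold kC
  have := kleinQ_pos hK₁ h12 l t
  positivity

/-- The radicand is positive. -/
lemma radicand_pos (hK₁ : 0 < K₁) (h12 : K₁ ≤ K₂) {e d : ℝ} (he : 0 < e) (hd : 2 * |d| ≤ K₁)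
    (l t : ℝ) : 0 < kB K₁ K₂ e d t ^ 2 + kA K₁ K₂ d t * kC K₁ K₂ l e t := by
  have h1 := kA_ge hK₁ h12 hd t
  have h2 := kC_pos hK₁ h12 he l t
  have h3 : 0 < kA K₁ K₂ d t * kC K₁ K₂ l e t := mul_pos (by linarith) h2
  positivity

/-- The quadratic equation. -/
lemma kTau_eq (hK₁ : 0 < K₁) (h12 : K₁ ≤ K₂) {e d : ℝ} (he : 0 < e) (hd : 2 * |d| ≤ K₁) (l t : ℝ) :
    kC K₁ K₂ l e t * kTau K₁ K₂ l e d t ^ 2 + 2 * kB K₁ K₂ e d t * kTau K₁ K₂ l e d t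
      = kA K₁ K₂ d t := by
  have hC := kC_pos hK₁ h12 he l t
  have hR := radicand_pos hK₁ h12 he hd l t
  have hS := Real.sq_sqrt hR.le
  unfold kTau
  set C := kC K₁ K₂ l e t
  set B := kB K₁ K₂ e d t
  set A := kA K₁ K₂ d t
  set S := √(B ^ 2 + A * C)
  field_simp
  nlinarith [hS]

lemma kTau_pos (hK₁ : 0 < K₁) (h12 : K₁ ≤ K₂) {e d : ℝ} (he : 0 < e) (hd : 2 * |d| ≤ K₁) (l t : ℝ) :
    0 < kTau K₁ K₂ l e d t := by
  have hC := kC_pos hK₁ h12 he l t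
  have hA : 0 < kA K₁ K₂ d t := by linarith [kA_ge hK₁ h12 hd t]
  unfold kTau
  apply div_pos _ hC
  have h1 : kB K₁ K₂ e d t < √(kB K₁ K₂ e d t ^ 2 + kA K₁ K₂ d t * kC K₁ K₂ l e t) := by
    apply Real.lt_sqrt_of_sq_lt
    nlinarith [mul_pos hA hC]
  linarith

/-- The term with `B` is small against `y = √Q τ`. -/
lemma two_B_tau_le (hK₁ : 0 < K₁) (h12 : K₁ ≤ K₂) (h21 : K₂ ≤ 2 * K₁) {e d c : ℝ} (he : 0 < e)
    (hd : 2 * |d| ≤ c * K₁) (_hc : 0 ≤ c) (hd' : 2 * |d| ≤ K₁) (l t : ℝ) :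
    |2 * kB K₁ K₂ e d t * kTau K₁ K₂ l e d t|
      ≤ e * c * (√(kleinQ K₁ K₂ l t) * kTau K₁ K₂ l e d t) := by
  have hK₂ : 0 < K₂ := lt_of_lt_of_le hK₁ h12
  have hτ := kTau_pos hK₁ h12 he hd' l t
  set τ := kTau K₁ K₂ l e d t
  have hQ := kleinQ_lower hK₁ h12 l t
  have hsq : 1 / K₂ ≤ √(kleinQ K₁ K₂ l t) := by
    apply Real.le_sqrt_of_sq_le
    calc (1 / K₂) ^ 2 = 1 / K₂ ^ 2 := by ring
      _ ≤ _ := hQ
  -- the bound for the coefficient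
  have hδ : |1 / K₂ ^ 2 - 1 / K₁ ^ 2| ≤ 1 / K₁ ^ 2 := by
    have hq : 1 / K₂ ^ 2 ≤ 1 / K₁ ^ 2 := by
      apply one_div_le_one_div_of_le (by positivity)
      exact pow_le_pow_left₀ hK₁.le h12 2
    have h0 : 0 < 1 / K₂ ^ 2 := by positivity
    rw [abs_le]
    constructor <;> linarith
  have hsc : |Real.sin t * Real.cos t| ≤ 1 / 2 := by
    rw [abs_le]
    have h1 := Real.sin_sq_add_cos_sq t
    constructor <;> nlinarith [sq_nonneg (Real.sin t - Real.cos t), sq_nonneg (Real.sin t + Real.cos t)]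
  have hB : 2 * |kB K₁ K₂ e d t| ≤ e * |d| * (1 / K₁ ^ 2) := by
    unfold kB
    rw [abs_mul, abs_mul, abs_mul, abs_of_pos he]
    have h3 : |Real.sin t * Real.cos t| * |1 / K₂ ^ 2 - 1 / K₁ ^ 2| ≤ 1 / 2 * (1 / K₁ ^ 2) :=
      mul_le_mul hsc hδ (abs_nonneg _) (by norm_num)
    have h4 : 0 ≤ e * |d| := by positivity
    nlinarith [mul_le_mul_of_nonneg_left h3 h4]
  have hτ2 : τ ≤ K₂ * (√(kleinQ K₁ K₂ l t) * τ) := by
    have : 1 ≤ K₂ * √(kleinQ K₁ K₂ l t) := by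
      have h5 := mul_le_mul_of_nonneg_left hsq hK₂.le
      have h6 : K₂ * (1 / K₂) = 1 := by field_simp
      linarith
    nlinarith
  set y := √(kleinQ K₁ K₂ l t) * τ with hy
  have hy0 : 0 ≤ y := by positivity
  rw [abs_mul, abs_mul, abs_of_pos hτ, abs_of_pos (by norm_num : (0:ℝ) < 2)]
  -- chain
  have h7 : 2 * |kB K₁ K₂ e d t| * τ ≤ e * |d| * (1 / K₁ ^ 2) * τ :=
    mul_le_mul_of_nonneg_right hB hτ.le
  have h8 : e * |d| * (1 / K₁ ^ 2) * τ ≤ e * |d| * (1 / K₁ ^ 2) * (K₂ * y) :=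
    mul_le_mul_of_nonneg_left hτ2 (by positivity)
  have h9 : e * |d| * (1 / K₁ ^ 2) * (K₂ * y) ≤ e * |d| * (1 / K₁ ^ 2) * (2 * K₁ * y) :=
    mul_le_mul_of_nonneg_left (mul_le_mul_of_nonneg_right h21 hy0) (by positivity)
  have h10 : e * |d| * (1 / K₁ ^ 2) * (2 * K₁ * y) = e * (2 * |d| / K₁) * y := by
    field_simp
  have h11 : 2 * |d| / K₁ ≤ c := by
    rw [div_le_iff₀ hK₁]
    exact hd
  have h12' : e * (2 * |d| / K₁) * y ≤ e * c * y :=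
    mul_le_mul_of_nonneg_right (mul_le_mul_of_nonneg_left h11 he.le) hy0
  linarith

/-- Upper bound for `y = √Q τ`. -/
lemma y_upper (hK₁ : 0 < K₁) (h12 : K₁ ≤ K₂) (h21 : K₂ ≤ 2 * K₁) {e d m : ℝ} (hm : 0 < m) (he : m ≤ e)
    (hd : 2 * |d| ≤ m * K₁) (hd' : 2 * |d| ≤ K₁) (l t : ℝ) :
    √(kleinQ K₁ K₂ l t) * kTau K₁ K₂ l e d t ≤ 1 + 1 / m := by
  have he0 : 0 < e := lt_of_lt_of_le hm he
  have hK₂ : 0 < K₂ := lt_of_lt_of_le hK₁ h12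
  have hq := kTau_eq hK₁ h12 he0 hd' l t
  have hb := two_B_tau_le hK₁ h12 h21 he0 hd hm.le hd' l t
  have hA := kA_le hK₁ hK₂ d t
  have hτ := kTau_pos hK₁ h12 he0 hd' l t
  have hQpos := kleinQ_pos hK₁ h12 l t
  set τ := kTau K₁ K₂ l e d t
  set Q := kleinQ K₁ K₂ l t with hQ
  set y := √Q * τ with hy
  have hy2 : y ^ 2 = Q * τ ^ 2 := by
    rw [hy, mul_pow, Real.sq_sqrt hQpos.le]
  have hy0 : 0 ≤ y := by positivity
  have hmain : e ^ 2 * y ^ 2 ≤ 1 + e * m * y := by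
    have h1 : kC K₁ K₂ l e t * τ ^ 2 = e ^ 2 * y ^ 2 := by
      rw [hy2]; unfold kC; ring
    rw [h1] at hq
    have h2 := (abs_le.mp hb).1
    linarith
  have hem : e * m * y ≤ e ^ 2 * y := by
    have : e * m ≤ e ^ 2 := by nlinarith
    exact mul_le_mul_of_nonneg_right this hy0
  have hdiv : y ^ 2 ≤ 1 / m ^ 2 + y := by
    have h3 : e ^ 2 * y ^ 2 ≤ 1 + e ^ 2 * y := by linarith
    have he2 : m ^ 2 ≤ e ^ 2 := pow_le_pow_left₀ hm.le he 2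
    have h4 : y ^ 2 - y ≤ 1 / e ^ 2 := by
      rw [le_div_iff₀ (by positivity)]
      nlinarith
    have h5 : 1 / e ^ 2 ≤ 1 / m ^ 2 := one_div_le_one_div_of_le (by positivity) he2
    linarith
  by_contra hcon
  rw [not_le] at hcon
  have h1m : 0 < 1 / m := by positivity
  have : (1 + 1 / m) * (1 / m) < y * (y - 1) := by
    apply mul_lt_mul'' hcon (by linarith) (by positivity) h1m.le
  have e1 : (1 + 1 / m) * (1 / m) = 1 / m + 1 / m ^ 2 := by field_simp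
  nlinarith

/-- Lower bound for `y = √Q τ`. -/
lemma y_lower (hK₁ : 0 < K₁) (h12 : K₁ ≤ K₂) (h21 : K₂ ≤ 2 * K₁) {e d Mf : ℝ} (he : 0 < e)
    (heM : e ≤ Mf) (hd' : 2 * |d| ≤ K₁) (l t : ℝ) :
    1 / (4 * Mf) ≤ √(kleinQ K₁ K₂ l t) * kTau K₁ K₂ l e d t := by
  have hMf : 0 < Mf := lt_of_lt_of_le he heM
  have hq := kTau_eq hK₁ h12 he hd' l t
  have hb := two_B_tau_le hK₁ h12 h21 he (c := 1) (by linarith) (by norm_num) hd' l t
  have hA := kA_ge hK₁ h12 hd' t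
  have hτ := kTau_pos hK₁ h12 he hd' l t
  have hQpos := kleinQ_pos hK₁ h12 l t
  set τ := kTau K₁ K₂ l e d t
  set Q := kleinQ K₁ K₂ l t with hQ
  set y := √Q * τ with hy
  have hy2 : y ^ 2 = Q * τ ^ 2 := by
    rw [hy, mul_pow, Real.sq_sqrt hQpos.le]
  have hy0 : 0 ≤ y := by positivity
  have hmain : 3 / 4 ≤ e ^ 2 * y ^ 2 + e * y := by
    have h1 : kC K₁ K₂ l e t * τ ^ 2 = e ^ 2 * y ^ 2 := by
      rw [hy2]; unfold kC; ring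
    rw [h1] at hq
    have h2 := (abs_le.mp hb).2
    simp only [mul_one] at h2
    linarith
  by_contra hcon
  rw [not_le] at hcon
  have h3 : e * y < 1 / 4 := by
    have h4 : y * Mf < 1 / 4 := by
      have := mul_lt_mul_of_pos_right hcon hMf
      have e5 : 1 / (4 * Mf) * Mf = 1 / 4 := by field_simp
      linarith
    nlinarith
  have h6 : 0 ≤ e * y := by positivity
  have h7 : e ^ 2 * y ^ 2 = (e * y) ^ 2 := by ring
  nlinarith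

end Alg

end Vale.Agent.Lib.P205.KleinInv
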