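import Mathlib
import Vale.Agent.Lib.P205.KleinInv.Tau

/-!
The family of equations, the shooting argument, and the symmetries of the solution.
-/

open scoped ContDiff NNReal Topology
open Set MeasureTheory

namespace Vale.Agent.Lib.P205.KleinInv

open Vale.Agent.Lib.P205

/-- The integral of `2 sin² cos²` over half a period. -/
lemma integral_two_sin_sq_cos_sq_pi :
    (∫ t in (0:ℝ)..Real.pi, 2 * (Real.sin t ^ 2 * Real.cos t ^ 2)) = Real.pi / 4 := by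
  have hid : ∀ t : ℝ, 2 * (Real.sin t ^ 2 * Real.cos t ^ 2) = 1 / 4 - Real.cos (4 * t) / 4 := by
    intro t
    have e : (4 : ℝ) * t = 2 * (2 * t) := by ring
    have hs : Real.sin t ^ 2 = 1 - Real.cos t ^ 2 := by
      have := Real.sin_sq_add_cos_sq t
      linarith
    rw [e, Real.cos_two_mul (2 * t), Real.cos_two_mul t, hs]
    ring
  have hder : ∀ t ∈ uIcc (0:ℝ) Real.pi,
      HasDerivAt (fun t : ℝ => t / 4 - Real.sin (4 * t) / 16)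
        (2 * (Real.sin t ^ 2 * Real.cos t ^ 2)) t := by
    intro t _
    have h1 : HasDerivAt (fun t : ℝ => (4:ℝ) * t) 4 t := by
      simpa using (hasDerivAt_id t).const_mul (4:ℝ)
    have h2 := (Real.hasDerivAt_sin (4 * t)).comp t h1
    have h3 := ((hasDerivAt_id t).div_const (4:ℝ)).sub (h2.div_const (16:ℝ))
    refine h3.congr_deriv ?_
    rw [hid t]
    ring
  have hcont : Continuous (fun t : ℝ => 2 * (Real.sin t ^ 2 * Real.cos t ^ 2)) := by fun_prop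
  rw [intervalIntegral.integral_eq_sub_of_hasDerivAt hder (hcont.intervalIntegrable _ _)]
  have s1 : Real.sin (4 * Real.pi) = 0 := by
    have : (4:ℝ) * Real.pi = ((4 : ℕ) : ℝ) * Real.pi := by push_cast; ring
    rw [this, Real.sin_nat_mul_pi]
  simp only [s1, mul_zero, Real.sin_zero]
  ring

/-- The speed in the parameter at `l = 0` is small. -/
lemma sqrt_kleinQ_zero_le {K₁ K₂ : ℝ} (h1 : 0 < K₁) (h12 : K₁ ≤ K₂) (t : ℝ) :
    √(kleinQ K₁ K₂ 0 t) ≤ 1 / K₁ := by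
  apply Real.sqrt_le_iff.mpr
  refine ⟨by positivity, ?_⟩
  unfold kleinQ
  have hq : 1 / K₂ ^ 2 ≤ 1 / K₁ ^ 2 := by
    apply one_div_le_one_div_of_le (by positivity)
    exact pow_le_pow_left₀ h1.le h12 2
  have hc : 0 ≤ Real.cos t ^ 2 := by positivity
  have e2 : Real.cos t ^ 2 / K₂ ^ 2 = Real.cos t ^ 2 * (1 / K₂ ^ 2) := by ring
  have e1 : Real.sin t ^ 2 / K₁ ^ 2 = Real.sin t ^ 2 * (1 / K₁ ^ 2) := by ring
  have e3 : (1 / K₁) ^ 2 = (Real.sin t ^ 2 + Real.cos t ^ 2) * (1 / K₁ ^ 2) := by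
    rw [Real.sin_sq_add_cos_sq, one_mul]; ring
  rw [e1, e2, e3]
  nlinarith [mul_le_mul_of_nonneg_left hq hc]

/-- The data of the construction. -/
structure Data where
  K₁ : ℝ
  K₂ : ℝ
  f : ℝ → ℝ
  d : ℝ → ℝ
  b : ℝ
  m : ℝ
  Mf : ℝ
  Lam : ℝ
  hK₁ : 0 < K₁
  h12 : K₁ ≤ K₂
  h21 : K₂ ≤ 2 * K₁
  hb : 0 < b
  hf : ContDiff ℝ ∞ f
  hd : ContDiff ℝ ∞ d
  hfd : ∀ x, HasDerivAt f (d x) x
  hm : 0 < m
  hfm : ∀ x, m ≤ f x
  hfM : ∀ x, f x ≤ Mf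
  hd1 : ∀ x, 2 * |d x| ≤ K₁
  hd2 : ∀ x, 2 * |d x| ≤ m * K₁
  feven : ∀ x, f (-x) = f x
  dodd : ∀ x, d (-x) = - d x
  fper : ∀ x, f (x + b) = f x
  dper : ∀ x, d (x + b) = d x
  /-- The frequency is large against the length. -/
  hlarge : Real.pi / K₁ < 1 / (4 * Mf) * (b / 2)
  /-- The parameter is large against the length. -/
  hLam : Lam * (Real.pi / 4) = (1 + 1 / m) * (b / 2) + 1

namespace Data

variable (D : Data)

/-- The right side with its parameter. -/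
noncomputable def Phi (z : ℝ × ℝ × ℝ) : ℝ :=
  kTau D.K₁ D.K₂ (D.Lam * Real.sin z.2.2 ^ 2) (D.f z.1) (D.d z.1) z.2.1

lemma hK₂ : 0 < D.K₂ := lt_of_lt_of_le D.hK₁ D.h12

lemma f_pos (x : ℝ) : 0 < D.f x := lt_of_lt_of_le D.hm (D.hfm x)

lemma contDiff_Phi : ContDiff ℝ ∞ D.Phi := by
  have hx : ContDiff ℝ ∞ (fun z : ℝ × ℝ × ℝ => z.1) := contDiff_fst
  have ht : ContDiff ℝ ∞ (fun z : ℝ × ℝ × ℝ => z.2.1) := contDiff_fst.comp contDiff_snd
  have hθ : ContDiff ℝ ∞ (fun z : ℝ × ℝ × ℝ => z.2.2) := contDiff_snd.comp contDiff_snd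
  have hS : ContDiff ℝ ∞ (fun z : ℝ × ℝ × ℝ => Real.sin z.2.1) := Real.contDiff_sin.comp ht
  have hC : ContDiff ℝ ∞ (fun z : ℝ × ℝ × ℝ => Real.cos z.2.1) := Real.contDiff_cos.comp ht
  have hL : ContDiff ℝ ∞ (fun z : ℝ × ℝ × ℝ => D.Lam * Real.sin z.2.2 ^ 2) :=
    contDiff_const.mul ((Real.contDiff_sin.comp hθ).pow 2)
  have hF : ContDiff ℝ ∞ (fun z : ℝ × ℝ × ℝ => D.f z.1) := D.hf.comp hx
  have hDd : ContDiff ℝ ∞ (fun z : ℝ × ℝ × ℝ => D.d z.1) := D.hd.comp hx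
  have hZ : ContDiff ℝ ∞ (fun z : ℝ × ℝ × ℝ => kZ D.K₁ D.K₂ z.2.1) := by
    unfold kZ
    exact ((hC.pow 2).div_const _).add ((hS.pow 2).div_const _)
  have hQ : ContDiff ℝ ∞ (fun z : ℝ × ℝ × ℝ => kleinQ D.K₁ D.K₂ (D.Lam * Real.sin z.2.2 ^ 2) z.2.1) := by
    unfold kleinQ
    exact (((hS.pow 2).div_const _).add ((hC.pow 2).div_const _)).add
      (((contDiff_const.mul (hL.pow 2)).mul (hS.pow 4)).mul (hC.pow 4))
  have hA : ContDiff ℝ ∞ (fun z : ℝ × ℝ × ℝ => kA D.K₁ D.K₂ (D.d z.1) z.2.1) := by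
    unfold kA
    exact contDiff_const.sub ((hDd.pow 2).mul hZ)
  have hB : ContDiff ℝ ∞ (fun z : ℝ × ℝ × ℝ => kB D.K₁ D.K₂ (D.f z.1) (D.d z.1) z.2.1) := by
    unfold kB
    exact ((hF.mul hDd).mul (hS.mul hC)).mul contDiff_const
  have hCc : ContDiff ℝ ∞ (fun z : ℝ × ℝ × ℝ =>
      kC D.K₁ D.K₂ (D.Lam * Real.sin z.2.2 ^ 2) (D.f z.1) z.2.1) := by
    unfold kC
    exact (hF.pow 2).mul hQ
  unfold Phi kTau
  refine ContDiff.div (hB.neg.add (ContDiff.sqrt ((hB.pow 2).add (hA.mul hCc)) ?_)) hCc ?_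
  · intro z
    exact (radicand_pos D.hK₁ D.h12 (D.f_pos _) (D.hd1 _) _ _).ne'
  · intro z
    exact (kC_pos D.hK₁ D.h12 (D.f_pos _) _ _).ne'

lemma Phi_per1 (x t θ : ℝ) : D.Phi (x + D.b, t, θ) = D.Phi (x, t, θ) := by
  simp only [Phi, D.fper, D.dper]

lemma Phi_per2 (x t θ : ℝ) : D.Phi (x, t + 2 * Real.pi, θ) = D.Phi (x, t, θ) := by
  simp only [Phi, kTau, kB, kA, kC, kZ, kleinQ, Real.sin_add_two_pi, Real.cos_add_two_pi]

lemma Phi_per3 (x t θ : ℝ) : D.Phi (x, t, θ + 2 * Real.pi) = D.Phi (x, t, θ) := by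
  simp only [Phi, Real.sin_add_two_pi]

/-- The symmetry of the right side. -/
lemma Phi_neg (x t θ : ℝ) : D.Phi (-x, t, θ) = D.Phi (x, -t, θ) := by
  simp only [Phi, D.feven, D.dodd, kTau, kB, kA, kC, kZ, kleinQ, Real.sin_neg, Real.cos_neg]
  ring_nf

lemma exists_bounds : ∃ K M : ℝ≥0, LipschitzWith K D.Phi ∧ ∀ z, ‖D.Phi z‖ ≤ M :=
  exists_bounds_of_periodic (D.contDiff_Phi.of_le (by simp)) D.hb (by positivity) (by positivity)
    D.Phi_per1 D.Phi_per2 D.Phi_per3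

end Data

end Vale.Agent.Lib.P205.KleinInv
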