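import Mathlib
import Vale.Agent.Lib.P205.KleinInv.Family

/-!
The shooting argument: the parameter reaches `π` at half the period, and the symmetries follow.
-/

open scoped ContDiff NNReal Topology
open Set MeasureTheory Filter

namespace Vale.Agent.Lib.P205.KleinInv

open Vale.Agent.Lib.P205

namespace Data

variable (D : Data)

/-- The family of solutions crosses `π` at half the period. -/
theorem exists_shoot : ∃ (θ : ℝ) (t : ℝ → ℝ), t 0 = 0 ∧
    (∀ x, HasDerivAt t (D.Phi (x, t x, θ)) x) ∧ t (D.b / 2) = Real.pi := by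
  obtain ⟨K, M, hLip, hBd⟩ := D.exists_bounds
  have hc : ∀ θ : ℝ, Continuous fun p : ℝ × ℝ => D.Phi (p.1, p.2, θ) := fun θ =>
    D.contDiff_Phi.continuous.comp (by fun_prop)
  have hL : ∀ (θ x : ℝ), LipschitzWith K (fun t => D.Phi (x, t, θ)) := by
    intro θ x
    refine LipschitzWith.of_dist_le_mul fun t t' => ?_
    have := hLip.dist_le_mul (x, t, θ) (x, t', θ)
    simpa [Prod.dist_eq] using this
  have hLθ : ∀ (x t θ θ' : ℝ), dist (D.Phi (x, t, θ)) (D.Phi (x, t, θ')) ≤ K * |θ - θ'| := by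
    intro x t θ θ'
    have := hLip.dist_le_mul (x, t, θ) (x, t, θ')
    simpa [Prod.dist_eq, Real.dist_eq] using this
  choose u hu0 hu using fun θ : ℝ =>
    exists_global_solution (V := fun x t => D.Phi (x, t, θ)) (hc θ) (hL θ)
      (fun x t => hBd (x, t, θ)) 0
  set L : ℝ := D.b / 2 with hLdef
  have hLpos : 0 < L := by have := D.hb; positivity
  -- continuity in the parameter
  have hdist : ∀ θ θ' : ℝ, dist (u θ L) (u θ' L) ≤ gronwallBound 0 K (0 + K * |θ' - θ|) (L - 0) := by
    intro θ θ'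
    have := dist_le_of_approx_trajectories_ODE (v := fun x t => D.Phi (x, t, θ)) (K := K)
      (f := u θ) (f' := fun x => D.Phi (x, u θ x, θ)) (g := u θ')
      (g' := fun x => D.Phi (x, u θ' x, θ')) (a := 0) (b := L) (δ := 0) (εf := 0)
      (εg := K * |θ' - θ|) (hL θ)
      (HasDerivAt.continuousOn fun x _ => hu θ x)
      (fun x _ => (hu θ x).hasDerivWithinAt)
      (fun x _ => by simp)
      (HasDerivAt.continuousOn fun x _ => hu θ' x)
      (fun x _ => (hu θ' x).hasDerivWithinAt)
      (fun x _ => hLθ _ _ _ _)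
      (by rw [hu0, hu0]; simp)
    exact this L ⟨hLpos.le, le_rfl⟩
  have hcontu : Continuous fun θ => u θ L := by
    rw [continuous_iff_continuousAt]
    intro θ
    rw [ContinuousAt, tendsto_iff_dist_tendsto_zero]
    have hg : Continuous fun θ' : ℝ => gronwallBound 0 K (0 + K * |θ' - θ|) (L - 0) :=
      (gronwallBound_continuous_ε 0 K (L - 0)).comp (by fun_prop)
    have hg0 : Tendsto (fun θ' : ℝ => gronwallBound 0 K (0 + K * |θ' - θ|) (L - 0)) (𝓝 θ) (𝓝 0) := by
      have := hg.tendsto θ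
      simp only [sub_self, abs_zero, mul_zero, add_zero, gronwallBound_ε0_δ0] at this
      exact this
    refine squeeze_zero (fun _ => dist_nonneg) (fun θ' => ?_) hg0
    rw [dist_comm]
    exact hdist θ θ'
  -- the primitive of the speed
  have hQc : ∀ l : ℝ, Continuous fun τ => √(kleinQ D.K₁ D.K₂ l τ) := fun l =>
    (contDiff_kleinQ D.K₁ D.K₂ l).continuous.sqrt
  have hPsi : ∀ (θ x : ℝ), HasDerivAt
      (fun x => ∫ τ in (0:ℝ)..(u θ x), √(kleinQ D.K₁ D.K₂ (D.Lam * Real.sin θ ^ 2) τ))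
      (√(kleinQ D.K₁ D.K₂ (D.Lam * Real.sin θ ^ 2) (u θ x)) * D.Phi (x, u θ x, θ)) x := by
    intro θ x
    exact (hasDerivAt_prim (hQc _) (u θ x)).comp x (hu θ x)
  have hupper : ∀ θ : ℝ, (∫ τ in (0:ℝ)..(u θ L), √(kleinQ D.K₁ D.K₂ (D.Lam * Real.sin θ ^ 2) τ))
      ≤ (1 + 1 / D.m) * L := by
    intro θ
    have hdiff : Differentiable ℝ
        (fun x => ∫ τ in (0:ℝ)..(u θ x), √(kleinQ D.K₁ D.K₂ (D.Lam * Real.sin θ ^ 2) τ)) :=
      fun x => (hPsi θ x).differentiableAt
    have := Convex.image_sub_le_mul_sub_of_deriv_le (D := univ) convex_univ hdiff.continuous.continuousOn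
      hdiff.differentiableOn (C := 1 + 1 / D.m) (fun x _ => by
        rw [(hPsi θ x).deriv]
        exact y_upper D.hK₁ D.h12 D.h21 D.hm (D.hfm x) (D.hd2 x) (D.hd1 x) _ _)
      0 (mem_univ _) L (mem_univ _) hLpos.le
    simpa [hu0] using this
  have hlower : ∀ θ : ℝ, 1 / (4 * D.Mf) * L
      ≤ ∫ τ in (0:ℝ)..(u θ L), √(kleinQ D.K₁ D.K₂ (D.Lam * Real.sin θ ^ 2) τ) := by
    intro θ
    have hdiff : Differentiable ℝ
        (fun x => ∫ τ in (0:ℝ)..(u θ x), √(kleinQ D.K₁ D.K₂ (D.Lam * Real.sin θ ^ 2) τ)) :=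
      fun x => (hPsi θ x).differentiableAt
    have := Convex.mul_sub_le_image_sub_of_le_deriv (D := univ) convex_univ hdiff.continuous.continuousOn
      hdiff.differentiableOn (C := 1 / (4 * D.Mf)) (fun x _ => by
        rw [(hPsi θ x).deriv]
        exact y_lower D.hK₁ D.h12 D.h21 (D.f_pos x) (D.hfM x) (D.hd1 x) _ _)
      0 (mem_univ _) L (mem_univ _) hLpos.le
    simpa [hu0] using this
  -- monotonicity of the primitive
  have hmono : ∀ (l w w' : ℝ), w ≤ w' → (∫ τ in (0:ℝ)..w, √(kleinQ D.K₁ D.K₂ l τ))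
      ≤ ∫ τ in (0:ℝ)..w', √(kleinQ D.K₁ D.K₂ l τ) := by
    intro l w w' hww
    have h1 := intervalIntegral.integral_add_adjacent_intervals (μ := volume)
      ((hQc l).intervalIntegrable 0 w) ((hQc l).intervalIntegrable w w')
    have h2 : 0 ≤ ∫ τ in w..w', √(kleinQ D.K₁ D.K₂ l τ) :=
      intervalIntegral.integral_nonneg hww (fun _ _ => Real.sqrt_nonneg _)
    linarith
  have hpi := Real.pi_pos
  -- the left end
  have hleft : Real.pi ≤ u 0 L := by
    by_contra hcon
    rw [not_le] at hcon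
    have h1 := hlower 0
    have h2 := hmono (D.Lam * Real.sin 0 ^ 2) _ _ hcon.le
    have h3 : (∫ τ in (0:ℝ)..Real.pi, √(kleinQ D.K₁ D.K₂ (D.Lam * Real.sin 0 ^ 2) τ))
        ≤ Real.pi * (1 / D.K₁) := by
      have hint := intervalIntegral.integral_mono_on (μ := volume) (a := 0) (b := Real.pi)
        (f := fun τ => √(kleinQ D.K₁ D.K₂ (D.Lam * Real.sin 0 ^ 2) τ)) (g := fun _ => 1 / D.K₁)
        hpi.le ((hQc _).intervalIntegrable _ _) intervalIntegrable_const (fun τ _ => by
          have : D.Lam * Real.sin 0 ^ 2 = 0 := by simp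
          rw [this]
          exact sqrt_kleinQ_zero_le D.hK₁ D.h12 τ)
      simpa using hint
    have h4 := D.hlarge
    rw [← hLdef] at h4
    have e : Real.pi * (1 / D.K₁) = Real.pi / D.K₁ := by ring
    rw [e] at h3
    linarith
  -- the right end
  have hright : u (Real.pi / 2) L ≤ Real.pi := by
    by_contra hcon
    rw [not_le] at hcon
    have h1 := hupper (Real.pi / 2)
    have h2 := hmono (D.Lam * Real.sin (Real.pi / 2) ^ 2) _ _ hcon.le
    have hS : D.Lam * Real.sin (Real.pi / 2) ^ 2 = D.Lam := by simp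
    rw [hS] at h1 h2
    have h3 : D.Lam * (Real.pi / 4) ≤ ∫ τ in (0:ℝ)..Real.pi, √(kleinQ D.K₁ D.K₂ D.Lam τ) := by
      have hc2 : Continuous (fun t : ℝ => D.Lam * (2 * (Real.sin t ^ 2 * Real.cos t ^ 2))) := by
        fun_prop
      have hint := intervalIntegral.integral_mono_on (μ := volume) (a := 0) (b := Real.pi)
        (f := fun t => D.Lam * (2 * (Real.sin t ^ 2 * Real.cos t ^ 2)))
        (g := fun τ => √(kleinQ D.K₁ D.K₂ D.Lam τ)) hpi.le
        (hc2.intervalIntegrable _ _) ((hQc _).intervalIntegrable _ _) (fun t _ => by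
          apply Real.le_sqrt_of_sq_le
          unfold kleinQ
          have : 0 ≤ Real.sin t ^ 2 / D.K₁ ^ 2 := by positivity
          have : 0 ≤ Real.cos t ^ 2 / D.K₂ ^ 2 := by positivity
          nlinarith)
      rw [intervalIntegral.integral_const_mul, integral_two_sin_sq_cos_sq_pi] at hint
      exact hint
    have h4 := D.hLam
    rw [← hLdef] at h4
    linarith
  obtain ⟨θ, _, hθ⟩ := intermediate_value_Icc' (a := 0) (b := Real.pi / 2) (by positivity)
    hcontu.continuousOn ⟨hright, hleft⟩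
  exact ⟨θ, u θ, hu0 θ, hu θ, hθ⟩

/-- The parameter: a smooth solution, odd, and with the right period. -/
theorem exists_param : ∃ (l : ℝ) (t : ℝ → ℝ), ContDiff ℝ ∞ t ∧ (∀ x, t (-x) = - t x) ∧
    (∀ x, t (x + D.b) = t x + 2 * Real.pi) ∧
    ∀ x, HasDerivAt t (kTau D.K₁ D.K₂ l (D.f x) (D.d x) (t x)) x := by
  obtain ⟨θ, t, ht0, ht, htL⟩ := D.exists_shoot
  obtain ⟨K, M, hLip, _⟩ := D.exists_bounds
  have hL : ∀ x : ℝ, LipschitzOnWith K (fun τ => D.Phi (x, τ, θ)) univ := by
    intro x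
    refine (LipschitzWith.of_dist_le_mul fun τ τ' => ?_).lipschitzOnWith
    have := hLip.dist_le_mul (x, τ, θ) (x, τ', θ)
    simpa [Prod.dist_eq] using this
  have hsm : ContDiff ℝ ∞ t := by
    apply contDiff_of_ode (Φ := fun p : ℝ × ℝ => D.Phi (p.1, p.2, θ))
    · exact D.contDiff_Phi.comp (contDiff_fst.prodMk (contDiff_snd.prodMk contDiff_const))
    · exact ht
  -- oddness
  have hodd : (fun x => - t (-x)) = t := by
    apply ODE_solution_unique_univ (v := fun x τ => D.Phi (x, τ, θ)) (s := fun _ => univ) (K := K)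
      (t₀ := 0) (fun x => hL x)
    · intro x
      refine ⟨?_, mem_univ _⟩
      have h1 : HasDerivAt (fun x : ℝ => -x) (-1) x := hasDerivAt_neg x
      have h2 := ((ht (-x)).comp x h1).neg
      refine h2.congr_deriv ?_
      have := D.Phi_neg x (t (-x)) θ
      rw [this]
      ring
    · intro x
      exact ⟨ht x, mem_univ _⟩
    · simp [ht0]
  have hodd' : ∀ x, t (-x) = - t x := by
    intro x
    have : - t (-x) = t x := congrFun hodd x
    linarith
  -- the reflection at half the period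
  have hrefl : (fun x => 2 * Real.pi - t (D.b - x)) = t := by
    apply ODE_solution_unique_univ (v := fun x τ => D.Phi (x, τ, θ)) (s := fun _ => univ) (K := K)
      (t₀ := D.b / 2) (fun x => hL x)
    · intro x
      refine ⟨?_, mem_univ _⟩
      have h1 : HasDerivAt (fun x : ℝ => D.b - x) (-1) x := (hasDerivAt_id' x).const_sub D.b
      have h2 := ((ht (D.b - x)).comp x h1).const_sub (2 * Real.pi)
      refine h2.congr_deriv ?_
      have e1 : D.b - x = -x + D.b := by ring
      have e2 : D.Phi (D.b - x, t (D.b - x), θ) = D.Phi (-x, t (D.b - x), θ) := by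
        rw [e1, D.Phi_per1]
      have e3 := D.Phi_neg x (t (D.b - x)) θ
      have e4 : D.Phi (x, 2 * Real.pi - t (D.b - x), θ) = D.Phi (x, - t (D.b - x), θ) := by
        have : 2 * Real.pi - t (D.b - x) = - t (D.b - x) + 2 * Real.pi := by ring
        rw [this, D.Phi_per2]
      rw [e4, ← e3, ← e2]
      ring
    · intro x
      exact ⟨ht x, mem_univ _⟩
    · have e : D.b - D.b / 2 = D.b / 2 := by ring
      simp only [e, htL]
      ring
  refine ⟨D.Lam * Real.sin θ ^ 2, t, hsm, hodd', ?_, ht⟩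
  intro x
  have : 2 * Real.pi - t (D.b - -x) = t (-x) := congrFun hrefl (-x)
  have e : D.b - -x = x + D.b := by ring
  rw [e, hodd' x] at this
  linarith

end Data

end Vale.Agent.Lib.P205.KleinInv
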