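import Mathlib
import Vale.Agent.Lib.P205.KleinInv.Shoot
import Vale.Agent.Lib.P205.Profile

/-!
Every metric `dx² + f(x)² dy²` on the Klein bottle, with `f` even and periodic, has a smooth isometric
immersion into four-space.
-/

open scoped ContDiff NNReal Topology
open Set MeasureTheory Filter

namespace Vale.Agent.Lib.P205.KleinInv

open Vale.Agent.Lib.P205

namespace Data

variable (D : Data)

/-- The map from the solution of the equation of the parameter. -/
theorem exists_map {a : ℝ} {n : ℕ} (hK₁a : D.K₁ * a = n * (2 * Real.pi))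
    (hK₂a : D.K₂ * a = Real.pi + n * (2 * Real.pi)) :
    ∃ F : ℝ × ℝ → EuclideanSpace ℝ (Fin 4), ContDiff ℝ ∞ F ∧
      (∀ x y, F (-x, y + a) = F (x, y)) ∧ (∀ x y, F (x + D.b, y) = F (x, y)) ∧
      ∀ q v w : ℝ × ℝ, inner ℝ (fderiv ℝ F q v) (fderiv ℝ F q w)
        = v.1 * w.1 + D.f q.1 ^ 2 * v.2 * w.2 := by
  obtain ⟨K₁, hK₁def⟩ : ∃ K₁ : ℝ, K₁ = D.K₁ := ⟨_, rfl⟩
  obtain ⟨K₂, hK₂def⟩ : ∃ K₂ : ℝ, K₂ = D.K₂ := ⟨_, rfl⟩
  rw [← hK₁def] at hK₁a
  rw [← hK₂def] at hK₂a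
  have h1 : 0 < K₁ := by rw [hK₁def]; exact D.hK₁
  have h2 : 0 < K₂ := by rw [hK₂def]; exact D.hK₂
  obtain ⟨l, s, hs, hsodd, hsper, hsd⟩ := D.exists_param
  rw [← hK₁def, ← hK₂def] at hsd
  let f := D.f
  have hf : ContDiff ℝ ∞ f := D.hf
  let aF : ℝ → ℝ := fun x => f x * Real.cos (s x) / K₁
  let bF : ℝ → ℝ := fun x => f x * Real.sin (s x) / K₂
  let pF : ℝ → ℝ := fun x => -(K₁ * (l / 2)) * Real.sin (s x) ^ 4
  let qF : ℝ → ℝ := fun x => -(K₂ * (l / 2)) * Real.cos (s x) ^ 4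
  have haF : ContDiff ℝ ∞ aF := (hf.mul (Real.contDiff_cos.comp hs)).div_const _
  have hbF : ContDiff ℝ ∞ bF := (hf.mul (Real.contDiff_sin.comp hs)).div_const _
  have hpF : ContDiff ℝ ∞ pF := contDiff_const.mul ((Real.contDiff_sin.comp hs).pow 4)
  have hqF : ContDiff ℝ ∞ qF := contDiff_const.mul ((Real.contDiff_cos.comp hs).pow 4)
  let comp : ℝ × ℝ → Fin 4 → ℝ := fun z => ![aF z.1 * Real.cos (pF z.1 + K₁ * z.2),
      aF z.1 * Real.sin (pF z.1 + K₁ * z.2), bF z.1 * Real.cos (qF z.1 + K₂ * z.2),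
      bF z.1 * Real.sin (qF z.1 + K₂ * z.2)]
  have hadd : ∀ (g : ℝ → ℝ) (K : ℝ), ContDiff ℝ ∞ g →
      ContDiff ℝ ∞ (fun z : ℝ × ℝ => g z.1 + K * z.2) := by
    intro g K hg
    exact (hg.comp contDiff_fst).add (contDiff_const.mul contDiff_snd)
  have hcomp0 : ContDiff ℝ ∞ (fun z : ℝ × ℝ => aF z.1 * Real.cos (pF z.1 + K₁ * z.2)) :=
    (haF.comp contDiff_fst).mul (Real.contDiff_cos.comp (hadd pF K₁ hpF))
  have hcomp1 : ContDiff ℝ ∞ (fun z : ℝ × ℝ => aF z.1 * Real.sin (pF z.1 + K₁ * z.2)) :=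
    (haF.comp contDiff_fst).mul (Real.contDiff_sin.comp (hadd pF K₁ hpF))
  have hcomp2 : ContDiff ℝ ∞ (fun z : ℝ × ℝ => bF z.1 * Real.cos (qF z.1 + K₂ * z.2)) :=
    (hbF.comp contDiff_fst).mul (Real.contDiff_cos.comp (hadd qF K₂ hqF))
  have hcomp3 : ContDiff ℝ ∞ (fun z : ℝ × ℝ => bF z.1 * Real.sin (qF z.1 + K₂ * z.2)) :=
    (hbF.comp contDiff_fst).mul (Real.contDiff_sin.comp (hadd qF K₂ hqF))
  have hFs : ContDiff ℝ ∞ (fun z => WithLp.toLp 2 (comp z) : ℝ × ℝ → EuclideanSpace ℝ (Fin 4)) := by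
    rw [contDiff_euclidean]
    intro i
    fin_cases i
    · exact hcomp0
    · exact hcomp1
    · exact hcomp2
    · exact hcomp3
  refine ⟨fun z => WithLp.toLp 2 (comp z), hFs, ?_, ?_, ?_⟩
  · -- the glide reflection
    intro x y
    refine congrArg (WithLp.toLp 2) ?_
    have hfe : f (-x) = f x := D.feven x
    have ea : aF (-x) = aF x := by simp only [aF, hsodd, Real.cos_neg, hfe]
    have eb : bF (-x) = - bF x := by simp only [bF, hsodd, Real.sin_neg, hfe]; ring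
    have ep : pF (-x) = pF x := by
      simp only [pF, hsodd, Real.sin_neg]
      ring
    have eq' : qF (-x) = qF x := by simp only [qF, hsodd, Real.cos_neg]
    have e1 : pF x + K₁ * (y + a) = (pF x + K₁ * y) + n * (2 * Real.pi) := by
      rw [← hK₁a]; ring
    have e2 : qF x + K₂ * (y + a) = (qF x + K₂ * y) + Real.pi + n * (2 * Real.pi) := by
      have : K₂ * (y + a) = K₂ * y + (K₂ * a) := by ring
      rw [this, hK₂a]; ring
    show ![aF (-x) * Real.cos (pF (-x) + K₁ * (y + a)), aF (-x) * Real.sin (pF (-x) + K₁ * (y + a)),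
        bF (-x) * Real.cos (qF (-x) + K₂ * (y + a)), bF (-x) * Real.sin (qF (-x) + K₂ * (y + a))]
      = ![aF x * Real.cos (pF x + K₁ * y), aF x * Real.sin (pF x + K₁ * y),
        bF x * Real.cos (qF x + K₂ * y), bF x * Real.sin (qF x + K₂ * y)]
    rw [ea, eb, ep, eq', e1, e2, Real.cos_add_nat_mul_two_pi, Real.sin_add_nat_mul_two_pi,
      Real.cos_add_nat_mul_two_pi, Real.sin_add_nat_mul_two_pi, Real.cos_add_pi, Real.sin_add_pi,
      neg_mul_neg, neg_mul_neg]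
  · -- the translation
    intro x y
    refine congrArg (WithLp.toLp 2) ?_
    have hfp : f (x + D.b) = f x := D.fper x
    have ea : aF (x + D.b) = aF x := by simp only [aF, hsper, Real.cos_add_two_pi, hfp]
    have eb : bF (x + D.b) = bF x := by simp only [bF, hsper, Real.sin_add_two_pi, hfp]
    have ep : pF (x + D.b) = pF x := by simp only [pF, hsper, Real.sin_add_two_pi]
    have eq' : qF (x + D.b) = qF x := by simp only [qF, hsper, Real.cos_add_two_pi]
    show ![aF (x + D.b) * Real.cos (pF (x + D.b) + K₁ * y), aF (x + D.b) * Real.sin (pF (x + D.b) + K₁ * y),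
        bF (x + D.b) * Real.cos (qF (x + D.b) + K₂ * y), bF (x + D.b) * Real.sin (qF (x + D.b) + K₂ * y)]
      = ![aF x * Real.cos (pF x + K₁ * y), aF x * Real.sin (pF x + K₁ * y),
        bF x * Real.cos (qF x + K₂ * y), bF x * Real.sin (qF x + K₂ * y)]
    rw [ea, eb, ep, eq']
  · -- the first fundamental form
    rintro ⟨x, y⟩ v w
    obtain ⟨τ, hτ⟩ : ∃ τ : ℝ, τ = kTau K₁ K₂ l (f x) (D.d x) (s x) := ⟨_, rfl⟩
    have hds : HasDerivAt s τ x := by rw [hτ]; exact hsd x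
    have hfx : HasDerivAt f (D.d x) x := D.hfd x
    have hS : HasDerivAt (fun x => Real.sin (s x)) (Real.cos (s x) * τ) x :=
      (Real.hasDerivAt_sin (s x)).comp x hds
    have hC : HasDerivAt (fun x => Real.cos (s x)) (-Real.sin (s x) * τ) x :=
      (Real.hasDerivAt_cos (s x)).comp x hds
    have hda : HasDerivAt aF
        ((D.d x * Real.cos (s x) + f x * (-Real.sin (s x) * τ)) / K₁) x := (hfx.mul hC).div_const K₁
    have hdb : HasDerivAt bF
        ((D.d x * Real.sin (s x) + f x * (Real.cos (s x) * τ)) / K₂) x := (hfx.mul hS).div_const K₂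
    have hdp : HasDerivAt pF
        (-(K₁ * (l / 2)) * (4 * Real.sin (s x) ^ 3 * (Real.cos (s x) * τ))) x := by
      have := (hS.pow 4).const_mul (-(K₁ * (l / 2)))
      refine this.congr_deriv ?_
      norm_num
    have hdq : HasDerivAt qF
        (-(K₂ * (l / 2)) * (4 * Real.cos (s x) ^ 3 * (-Real.sin (s x) * τ))) x := by
      have := (hC.pow 4).const_mul (-(K₂ * (l / 2)))
      refine this.congr_deriv ?_
      norm_num
    have t0 := hasFDerivAt_cos_term K₁ x y hda hdp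
    have t1 := hasFDerivAt_sin_term K₁ x y hda hdp
    have t2 := hasFDerivAt_cos_term K₂ x y hdb hdq
    have t3 := hasFDerivAt_sin_term K₂ x y hdb hdq
    have hFd := (hFs.differentiable (by simp) (x, y)).hasFDerivAt
    have hcompo : ∀ (i : Fin 4), HasFDerivAt (fun z => comp z i)
        ((PiLp.proj 2 (fun _ : Fin 4 => ℝ) i).toContinuousLinearMap ∘L
          fderiv ℝ (fun z => WithLp.toLp 2 (comp z) : ℝ × ℝ → EuclideanSpace ℝ (Fin 4)) (x, y)) (x, y) := by
      intro i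
      exact ((PiLp.proj 2 (fun _ : Fin 4 => ℝ) i).hasFDerivAt).comp (x, y) hFd
    have hval : ∀ (i : Fin 4) (u : ℝ × ℝ),
        (fderiv ℝ (fun z => WithLp.toLp 2 (comp z) : ℝ × ℝ → EuclideanSpace ℝ (Fin 4)) (x, y) u).ofLp i
          = fderiv ℝ (fun z => comp z i) (x, y) u := by
      intro i u
      rw [(hcompo i).fderiv]
      rfl
    rw [PiLp.inner_apply, Fin.sum_univ_four]
    simp only [RCLike.inner_apply, conj_trivial]
    rw [hval, hval, hval, hval, hval, hval, hval, hval]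
    have f0 : fderiv ℝ (fun z => comp z 0) (x, y) = _ := t0.fderiv
    have f1 : fderiv ℝ (fun z => comp z 1) (x, y) = _ := t1.fderiv
    have f2 : fderiv ℝ (fun z => comp z 2) (x, y) = _ := t2.fderiv
    have f3 : fderiv ℝ (fun z => comp z 3) (x, y) = _ := t3.fderiv
    rw [f0, f1, f2, f3]
    simp only [add_apply, smul_apply, ContinuousLinearMap.coe_fst', ContinuousLinearMap.coe_snd',
      smul_eq_mul]
    have hinner := inner_alg2 (aF x) ((D.d x * Real.cos (s x) + f x * (-Real.sin (s x) * τ)) / K₁)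
      (-(K₁ * (l / 2)) * (4 * Real.sin (s x) ^ 3 * (Real.cos (s x) * τ))) (bF x)
      ((D.d x * Real.sin (s x) + f x * (Real.cos (s x) * τ)) / K₂)
      (-(K₂ * (l / 2)) * (4 * Real.cos (s x) ^ 3 * (-Real.sin (s x) * τ))) K₁ K₂
      (Real.cos (pF x + K₁ * y)) (Real.sin (pF x + K₁ * y)) (Real.cos (qF x + K₂ * y))
      (Real.sin (qF x + K₂ * y)) v.1 v.2 w.1 w.2 (Real.sin_sq_add_cos_sq _) (Real.sin_sq_add_cos_sq _)
    have hSC : Real.sin (s x) ^ 2 + Real.cos (s x) ^ 2 = 1 := Real.sin_sq_add_cos_sq _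
    have hE : K₁ ^ 2 * aF x ^ 2 + K₂ ^ 2 * bF x ^ 2 = f x ^ 2 := by
      simp only [aF, bF]
      have e1 : K₁ ^ 2 * (f x * Real.cos (s x) / K₁) ^ 2 = f x ^ 2 * Real.cos (s x) ^ 2 := by
        field_simp
      have e2 : K₂ ^ 2 * (f x * Real.sin (s x) / K₂) ^ 2 = f x ^ 2 * Real.sin (s x) ^ 2 := by
        field_simp
      rw [e1, e2]
      linear_combination f x ^ 2 * hSC
    have hG : K₁ * aF x ^ 2 * (-(K₁ * (l / 2)) * (4 * Real.sin (s x) ^ 3 * (Real.cos (s x) * τ)))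
        + K₂ * bF x ^ 2 * (-(K₂ * (l / 2)) * (4 * Real.cos (s x) ^ 3 * (-Real.sin (s x) * τ))) = 0 := by
      simp only [aF, bF]
      field_simp
      ring
    -- the quadratic equation for the speed
    have h12' : K₁ ≤ K₂ := by rw [hK₁def, hK₂def]; exact D.h12
    have hd1' : 2 * |D.d x| ≤ K₁ := by rw [hK₁def]; exact D.hd1 x
    have hq : kC K₁ K₂ l (f x) (s x) * τ ^ 2 + 2 * kB K₁ K₂ (f x) (D.d x) (s x) * τ
        = kA K₁ K₂ (D.d x) (s x) := by
      rw [hτ]
      exact kTau_eq h1 h12' (D.f_pos x) hd1' l (s x)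
    have hH : ((D.d x * Real.cos (s x) + f x * (-Real.sin (s x) * τ)) / K₁) ^ 2
        + aF x ^ 2 * (-(K₁ * (l / 2)) * (4 * Real.sin (s x) ^ 3 * (Real.cos (s x) * τ))) ^ 2
        + ((D.d x * Real.sin (s x) + f x * (Real.cos (s x) * τ)) / K₂) ^ 2
        + bF x ^ 2 * (-(K₂ * (l / 2)) * (4 * Real.cos (s x) ^ 3 * (-Real.sin (s x) * τ))) ^ 2 = 1 := by
      simp only [aF, bF]
      have e : (f x * Real.cos (s x) / K₁) ^ 2 *
            (-(K₁ * (l / 2)) * (4 * Real.sin (s x) ^ 3 * (Real.cos (s x) * τ))) ^ 2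
          + (f x * Real.sin (s x) / K₂) ^ 2 *
            (-(K₂ * (l / 2)) * (4 * Real.cos (s x) ^ 3 * (-Real.sin (s x) * τ))) ^ 2
          = f x ^ 2 * τ ^ 2 * (4 * l ^ 2 * Real.sin (s x) ^ 4 * Real.cos (s x) ^ 4)
            * (Real.sin (s x) ^ 2 + Real.cos (s x) ^ 2) := by
        field_simp
        ring
      rw [hSC, mul_one] at e
      unfold kC kB kA kZ kleinQ at hq
      have e' : ((D.d x * Real.cos (s x) + f x * (-Real.sin (s x) * τ)) / K₁) ^ 2
          + ((D.d x * Real.sin (s x) + f x * (Real.cos (s x) * τ)) / K₂) ^ 2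
          = D.d x ^ 2 * (Real.cos (s x) ^ 2 / K₁ ^ 2 + Real.sin (s x) ^ 2 / K₂ ^ 2)
            + 2 * (f x * D.d x * (Real.sin (s x) * Real.cos (s x)) * (1 / K₂ ^ 2 - 1 / K₁ ^ 2)) * τ
            + f x ^ 2 * τ ^ 2 * (Real.sin (s x) ^ 2 / K₁ ^ 2 + Real.cos (s x) ^ 2 / K₂ ^ 2) := by
        field_simp
        ring
      linear_combination e + e' + hq
    rw [hH, hG, hE] at hinner
    simp only [one_mul, zero_mul, add_zero] at hinner
    linear_combination hinner

end Data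

end Vale.Agent.Lib.P205.KleinInv
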