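import Mathlib
import Vale.Agent.Lib.P205.KleinInv.Main

/-!
The warped metrics on the Klein bottle and then all the metrics invariant under the circle action.
-/

open scoped ContDiff NNReal Topology
open Set MeasureTheory Filter

namespace Vale.Agent.Lib.P205.KleinInv

open Vale.Agent.Lib.P205

/-- Every metric `dx² + f(x)² dy²` with `f` even and periodic on the Klein bottle. -/
theorem warped_klein_immersion {a b : ℝ} (ha : 0 < a) (hb : 0 < b) {f : ℝ → ℝ}
    (hf : ContDiff ℝ ∞ f) (hpos : ∀ x, 0 < f x) (heven : ∀ x, f (-x) = f x)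
    (hper : ∀ x, f (x + b) = f x) :
    ∃ F : ℝ × ℝ → EuclideanSpace ℝ (Fin 4), ContDiff ℝ ∞ F ∧
      (∀ x y, F (-x, y + a) = F (x, y)) ∧ (∀ x y, F (x + b, y) = F (x, y)) ∧
      ∀ q v w : ℝ × ℝ, inner ℝ (fderiv ℝ F q v) (fderiv ℝ F q w)
        = v.1 * w.1 + f q.1 ^ 2 * v.2 * w.2 := by
  have hpi := Real.pi_pos
  have hfd : ∀ x, HasDerivAt f (deriv f x) x := fun x =>
    (hf.differentiable (by simp) x).hasDerivAt
  have hdsm : ContDiff ℝ ∞ (deriv f) := by
    have := (contDiff_infty_iff_deriv.mp hf).2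
    exact this
  have hP : Function.Periodic f b := hper
  have hPd : Function.Periodic (deriv f) b := deriv_periodic hP
  have hdodd : ∀ x, deriv f (-x) = - deriv f x := by
    intro x
    have h1 : HasDerivAt (fun x : ℝ => -x) (-1) x := hasDerivAt_neg x
    have h2 : HasDerivAt (fun x => f (-x)) (deriv f (-x) * (-1)) x := (hfd (-x)).comp x h1
    have h3 : (fun x => f (-x)) = f := funext heven
    rw [h3] at h2
    have := h2.unique (hfd x)
    linarith
  -- the bounds
  have hcomp := hP.compact_of_continuous hb.ne' hf.continuous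
  obtain ⟨m, ⟨x₀, hx₀⟩, hmin⟩ := hcomp.exists_isLeast (range_nonempty f)
  obtain ⟨Mf, _, hmax⟩ := hcomp.exists_isGreatest (range_nonempty f)
  have hm : 0 < m := by rw [← hx₀]; exact hpos x₀
  have hfm : ∀ x, m ≤ f x := fun x => hmin ⟨x, rfl⟩
  have hfM : ∀ x, f x ≤ Mf := fun x => hmax ⟨x, rfl⟩
  have hMf : 0 < Mf := lt_of_lt_of_le hm ((hfm 0).trans (hfM 0))
  obtain ⟨M', hM'⟩ := isBounded_iff_forall_norm_le.mp
    (hPd.isBounded_of_continuous hb.ne' hdsm.continuous)
  have hdb : ∀ x, |deriv f x| ≤ M' := fun x => hM' _ ⟨x, rfl⟩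
  have hM'0 : 0 ≤ M' := (abs_nonneg _).trans (hdb 0)
  -- the frequencies
  obtain ⟨y₀, hy₀⟩ : ∃ y₀ : ℝ, y₀ = 1 / (4 * Mf) * (b / 2) := ⟨_, rfl⟩
  have hy₀pos : 0 < y₀ := by rw [hy₀]; positivity
  obtain ⟨R, hR⟩ : ∃ R : ℝ, R = 2 * M' + 2 * M' / m + Real.pi / y₀ + 1 := ⟨_, rfl⟩
  have hRpos : 0 < R := by rw [hR]; positivity
  obtain ⟨n, hn1, hnR⟩ : ∃ n : ℕ, 1 ≤ n ∧ R ≤ 2 * Real.pi * n / a := by
    refine ⟨⌈R * a / (2 * Real.pi)⌉₊ + 1, by omega, ?_⟩
    have h1 : R * a / (2 * Real.pi) ≤ ⌈R * a / (2 * Real.pi)⌉₊ := Nat.le_ceil _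
    rw [le_div_iff₀ ha]
    rw [div_le_iff₀ (by positivity)] at h1
    push_cast
    nlinarith
  have hnpos : (0:ℝ) < n := by exact_mod_cast hn1
  have hn1' : (1:ℝ) ≤ n := by exact_mod_cast hn1
  obtain ⟨K₁, hK₁⟩ : ∃ K₁ : ℝ, K₁ = 2 * Real.pi * n / a := ⟨_, rfl⟩
  obtain ⟨K₂, hK₂⟩ : ∃ K₂ : ℝ, K₂ = (2 * n + 1) * Real.pi / a := ⟨_, rfl⟩
  have h1 : 0 < K₁ := by rw [hK₁]; positivity
  have h12 : K₁ ≤ K₂ := by
    rw [hK₁, hK₂]
    apply div_le_div_of_nonneg_right _ ha.le
    nlinarith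
  have h21 : K₂ ≤ 2 * K₁ := by
    rw [hK₁, hK₂]
    have : 2 * (2 * Real.pi * n / a) = (4 * Real.pi * n) / a := by ring
    rw [this]
    apply div_le_div_of_nonneg_right _ ha.le
    nlinarith
  have hK₁a : K₁ * a = n * (2 * Real.pi) := by rw [hK₁]; field_simp
  have hK₂a : K₂ * a = Real.pi + n * (2 * Real.pi) := by rw [hK₂]; field_simp; ring
  have hRK : R ≤ K₁ := by rw [hK₁]; exact hnR
  have e2M : 2 * M' ≤ K₁ := by
    have : 0 ≤ 2 * M' / m := by positivity
    have : 0 ≤ Real.pi / y₀ := by positivity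
    rw [hR] at hRK
    linarith
  have e2Mm : 2 * M' / m ≤ K₁ := by
    have : 0 ≤ Real.pi / y₀ := by positivity
    have : 0 ≤ M' := hM'0
    rw [hR] at hRK
    linarith
  have hlarge : Real.pi / K₁ < y₀ := by
    have : Real.pi / y₀ < K₁ := by
      have : 0 ≤ 2 * M' / m := by positivity
      rw [hR] at hRK
      linarith
    rw [div_lt_iff₀ hy₀pos] at this
    rw [div_lt_iff₀ h1]
    linarith
  let D : Data :=
    { K₁ := K₁, K₂ := K₂, f := f, d := deriv f, b := b, m := m, Mf := Mf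
      Lam := ((1 + 1 / m) * (b / 2) + 1) / (Real.pi / 4)
      hK₁ := h1, h12 := h12, h21 := h21, hb := hb, hf := hf, hd := hdsm, hfd := hfd, hm := hm
      hfm := hfm, hfM := hfM
      hd1 := fun x => by
        have := hdb x
        linarith
      hd2 := fun x => by
        have := hdb x
        have h3 : 2 * M' ≤ m * K₁ := by
          rw [div_le_iff₀ hm] at e2Mm
          linarith
        linarith
      feven := heven, dodd := hdodd, fper := hper, dper := hPd
      hlarge := by rw [← hy₀]; exact hlarge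
      hLam := by field_simp }
  exact D.exists_map hK₁a hK₂a

/-- Every metric on the Klein bottle invariant under the circle action has a smooth isometric immersion
into four-space. The metric is `H dx² + 2 G dx dy + E dy²` with coefficients depending on `x` only,
`b`-periodic, `E`, `H` even and `G` odd, which is what invariance under the glide reflection means. -/
theorem invariant_klein_immersion {a b : ℝ} (ha : 0 < a) (hb : 0 < b) {E G H : ℝ → ℝ}
    (hE : ContDiff ℝ ∞ E) (hG : ContDiff ℝ ∞ G) (hH : ContDiff ℝ ∞ H)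
    (pE : ∀ x, E (x + b) = E x) (pG : ∀ x, G (x + b) = G x) (pH : ∀ x, H (x + b) = H x)
    (eE : ∀ x, E (-x) = E x) (oG : ∀ x, G (-x) = - G x) (eH : ∀ x, H (-x) = H x)
    (hEpos : ∀ x, 0 < E x) (hdet : ∀ x, 0 < E x * H x - G x ^ 2) :
    ∃ F : ℝ × ℝ → EuclideanSpace ℝ (Fin 4), ContDiff ℝ ∞ F ∧
      (∀ x y, F (-x, y + a) = F (x, y)) ∧ (∀ x y, F (x + b, y) = F (x, y)) ∧
      ∀ q v w : ℝ × ℝ, inner ℝ (fderiv ℝ F q v) (fderiv ℝ F q w)
        = H q.1 * v.1 * w.1 + G q.1 * (v.1 * w.2 + v.2 * w.1) + E q.1 * v.2 * w.2 := by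
  -- the speed of the arclength across the orbits
  let Qd : ℝ → ℝ := fun x => (E x * H x - G x ^ 2) / E x
  have hQd : ContDiff ℝ ∞ Qd := ((hE.mul hH).sub (hG.pow 2)).div hE (fun x => (hEpos x).ne')
  have hQpos : ∀ x, 0 < Qd x := fun x => div_pos (hdet x) (hEpos x)
  let r : ℝ → ℝ := fun x => √(Qd x)
  have hr : ContDiff ℝ ∞ r := hQd.sqrt (fun x => (hQpos x).ne')
  have hrpos : ∀ x, 0 < r x := fun x => Real.sqrt_pos.mpr (hQpos x)
  have hrper : Function.Periodic r b := fun x => by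
    simp only [r, Qd, pE, pG, pH]
  have hreven : ∀ x, r (-x) = r x := fun x => by
    simp only [r, Qd, eE, oG, eH]
    congr 2
    ring
  -- the lower bound of the speed
  have hcomp := hrper.compact_of_continuous hb.ne' hr.continuous
  obtain ⟨c, ⟨x₀, hx₀⟩, hmin⟩ := hcomp.exists_isLeast (range_nonempty r)
  have hc : 0 < c := by rw [← hx₀]; exact hrpos x₀
  have hrc : ∀ x, c ≤ r x := fun x => hmin ⟨x, rfl⟩
  -- the arclength and its inverse
  let W : ℝ → ℝ := fun x => ∫ t in (0:ℝ)..x, r t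
  have hWd : ∀ x, HasDerivAt W (r x) x := hasDerivAt_prim hr.continuous
  have hWs : ContDiff ℝ ∞ W := contDiff_prim hr
  obtain ⟨b', hb'⟩ : ∃ b' : ℝ, b' = W b := ⟨_, rfl⟩
  have hWper : ∀ x, W (x + b) = W x + b' := fun x => by
    rw [hb']
    exact prim_add_period hr.continuous hrper x
  have hWodd : ∀ x, W (-x) = - W x := by
    intro x
    have e1 : (∫ τ in (0:ℝ)..x, r (-τ)) = ∫ τ in (-x)..(-0:ℝ), r τ :=
      intervalIntegral.integral_comp_neg (a := 0) (b := x) r
    have e2 : (∫ τ in (0:ℝ)..x, r (-τ)) = W x := by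
      simp only [W, hreven]
    have e3 : (∫ τ in (-x)..(-0:ℝ), r τ) = - W (-x) := by
      rw [neg_zero, intervalIntegral.integral_symm]
    rw [e2, e3] at e1
    linarith
  have hb'pos : 0 < b' := by
    rw [hb']
    exact intervalIntegral.intervalIntegral_pos_of_pos (hr.continuous.intervalIntegrable _ _) hrpos hb
  have hWmono : StrictMono W := by
    apply strictMono_of_deriv_pos
    intro x
    rw [(hWd x).deriv]
    exact hrpos x
  obtain ⟨X, hX, hXW⟩ := exists_reparam hr (contDiff_const (c := (1:ℝ))) hc hrc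
  have hXW' : ∀ s, W (X s) = s := by
    intro s
    show (∫ t in (0:ℝ)..(X s), r t) = s
    rw [hXW s]
    simp
  have hXodd : ∀ s, X (-s) = - X s := by
    intro s
    apply hWmono.injective
    rw [hXW', hWodd, hXW']
  have hXper : ∀ s, X (s + b') = X s + b := by
    intro s
    apply hWmono.injective
    rw [hXW', hWper, hXW']
  -- the warping function in the arclength
  let f : ℝ → ℝ := fun s => √(E (X s))
  have hfs : ContDiff ℝ ∞ f := (hE.comp hX).sqrt (fun s => (hEpos _).ne')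
  have hfpos : ∀ s, 0 < f s := fun s => Real.sqrt_pos.mpr (hEpos _)
  have hfeven : ∀ s, f (-s) = f s := fun s => by simp only [f, hXodd, eE]
  have hfper : ∀ s, f (s + b') = f s := fun s => by simp only [f, hXper, pE]
  obtain ⟨F₀, hF₀, hglide, htrans, hmetric⟩ := warped_klein_immersion ha hb'pos hfs hfpos hfeven hfper
  -- the shear
  let g : ℝ → ℝ := fun x => G x / E x
  have hg : ContDiff ℝ ∞ g := hG.div hE (fun x => (hEpos x).ne')
  have hgper : Function.Periodic g b := fun x => by simp only [g, pG, pE]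
  have hgodd : ∀ x, g (-x) = - g x := fun x => by simp only [g, oG, eE]; ring
  let h : ℝ → ℝ := fun x => ∫ t in (0:ℝ)..x, g t
  have hhd : ∀ x, HasDerivAt h (g x) x := hasDerivAt_prim hg.continuous
  have hhs : ContDiff ℝ ∞ h := contDiff_prim hg
  have hheven : ∀ x, h (-x) = h x := by
    intro x
    have e1 : (∫ τ in (0:ℝ)..x, g (-τ)) = ∫ τ in (-x)..(-0:ℝ), g τ :=
      intervalIntegral.integral_comp_neg (a := 0) (b := x) g
    have e2 : (∫ τ in (0:ℝ)..x, g (-τ)) = - h x := by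
      simp only [hgodd]
      rw [intervalIntegral.integral_neg]
    have e3 : (∫ τ in (-x)..(-0:ℝ), g τ) = - h (-x) := by
      rw [neg_zero, intervalIntegral.integral_symm]
    rw [e2, e3] at e1
    linarith
  have hhper : ∀ x, h (x + b) = h x := by
    intro x
    have h1 : h (x + b) = h x + h b := prim_add_period hg.continuous hgper x
    -- the mean of the odd function vanishes
    have h2 : h (-b + b) = h (-b) + h b := prim_add_period hg.continuous hgper (-b)
    have h3 : h (-b + b) = 0 := by simp [h]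
    have h4 := hheven b
    have h5 : h b = 0 := by linarith
    rw [h1, h5, add_zero]
  -- the map
  let Ψ : ℝ × ℝ → ℝ × ℝ := fun q => (W q.1, q.2 + h q.1)
  have hΨ : ContDiff ℝ ∞ Ψ :=
    (hWs.comp contDiff_fst).prodMk (contDiff_snd.add (hhs.comp contDiff_fst))
  refine ⟨fun q => F₀ (Ψ q), hF₀.comp hΨ, ?_, ?_, ?_⟩
  · intro x y
    show F₀ (W (-x), y + a + h (-x)) = F₀ (W x, y + h x)
    rw [hWodd, hheven]
    have e : y + a + h x = (y + h x) + a := by ring
    rw [e]
    exact hglide _ _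
  · intro x y
    show F₀ (W (x + b), y + h (x + b)) = F₀ (W x, y + h x)
    rw [hWper, hhper]
    exact htrans _ _
  · rintro ⟨x, y⟩ v w
    have hΨd : HasFDerivAt Ψ
        ((r x • ContinuousLinearMap.fst ℝ ℝ ℝ).prod
          (ContinuousLinearMap.snd ℝ ℝ ℝ + g x • ContinuousLinearMap.fst ℝ ℝ ℝ)) (x, y) := by
      have h1 : HasFDerivAt (fun q : ℝ × ℝ => W q.1) (r x • ContinuousLinearMap.fst ℝ ℝ ℝ) (x, y) :=
        HasDerivAt.comp_hasFDerivAt (x, y) (h₂ := W) (hWd x) hasFDerivAt_fst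
      have h2 : HasFDerivAt (fun q : ℝ × ℝ => h q.1) (g x • ContinuousLinearMap.fst ℝ ℝ ℝ) (x, y) :=
        HasDerivAt.comp_hasFDerivAt (x, y) (h₂ := h) (hhd x) hasFDerivAt_fst
      exact h1.prodMk (hasFDerivAt_snd.add h2)
    have hF₀d := (hF₀.differentiable (by simp) (Ψ (x, y))).hasFDerivAt
    have hcompd := hF₀d.comp (x, y) hΨd
    have hfder : ∀ u : ℝ × ℝ, fderiv ℝ (fun q => F₀ (Ψ q)) (x, y) u
        = fderiv ℝ F₀ (Ψ (x, y)) (r x * u.1, u.2 + g x * u.1) := by
      intro u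
      have e : fderiv ℝ (fun q => F₀ (Ψ q)) (x, y) = _ := hcompd.fderiv
      rw [e]
      simp [ContinuousLinearMap.comp_apply]
    rw [hfder, hfder, hmetric]
    -- the algebra
    have hWX : X (W x) = x := by
      apply hWmono.injective
      rw [hXW']
    have hf2 : f (Ψ (x, y)).1 ^ 2 = E x := by
      show f (W x) ^ 2 = E x
      simp only [f]
      rw [hWX, Real.sq_sqrt (hEpos x).le]
    have hr2 : r x ^ 2 = (E x * H x - G x ^ 2) / E x := Real.sq_sqrt (hQpos x).le
    rw [hf2]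
    have hE0 : E x ≠ 0 := (hEpos x).ne'
    simp only [g]
    have e1 : r x * v.1 * (r x * w.1) = r x ^ 2 * (v.1 * w.1) := by ring
    show r x * v.1 * (r x * w.1) + E x * (v.2 + G x / E x * v.1) * (w.2 + G x / E x * w.1)
      = H x * v.1 * w.1 + G x * (v.1 * w.2 + v.2 * w.1) + E x * v.2 * w.2
    rw [e1, hr2]
    field_simp
    ring

end Vale.Agent.Lib.P205.KleinInv
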